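import Vale.Agent.P140.PubT

namespace Vale.Agent.Results.P140.Nonunique

open MeasureTheory Vale.Agent.P140.Pub

theorem result : ∃ F₀ : Om → ℝ, IsDatum F₀ ∧ ∃ F G : ℝ → Om → ℝ, IsSol F₀ F ∧ IsSol F₀ G ∧
    ¬ (fun y : ℝ × Om => F y.1 y.2) =ᵐ[tm] (fun y : ℝ × Om => G y.1 y.2) :=
  Vale.Agent.P140.pub_goal

end Vale.Agent.Results.P140.Nonunique
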